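import Mathlib

/-! P034: flagged environments (helper14's proof), kernel facts. -/

namespace Vale.Agent.H4.P034

open Finset

variable {α : Type*} [Fintype α] [DecidableEq α]

/-- `∑_{S ∈ SS} γ(S) s^|S \ O|`. -/
noncomputable def Lam (γ : Finset α → ℝ) (SS : Finset (Finset α)) (s : ℝ) (O : Finset α) : ℝ :=
  ∑ S ∈ SS, γ S * s ^ (S \ O).card

/-- influence of `Z` in the context `O`. -/
noncomputable def Inf (γ : Finset α → ℝ) (SS : Finset (Finset α)) (s : ℝ) (Z O : Finset α) : ℝ :=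
  ∑ S ∈ SS with Z ⊆ S \ O, γ S * s ^ ((S \ O) \ Z).card

open Classical in
/-- hereditary flags. -/
noncomputable def Flag (γ : Finset α → ℝ) (SS : Finset (Finset α)) (s N : ℝ)
    (W O S : Finset α) : Finset α :=
  (S \ O).filter (fun x => ∃ O' Z : Finset α, W ⊆ O' ∧ O' ⊆ O ∧ Z ⊆ S \ O' ∧ x ∈ Z ∧
    (1 / N) ^ Z.card ≤ Inf γ SS s Z O')

/-- weight of `S` in the context `O`, flagged environment `D`. -/
noncomputable def eD (γ : Finset α → ℝ) (SS : Finset (Finset α)) (s N : ℝ)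
    (W : Finset α) (D : ℝ) (O S : Finset α) : ℝ :=
  s ^ ((S \ O).card - (Flag γ SS s N W O S).card) * D ^ (Flag γ SS s N W O S).card

/-- flagged functional. -/
noncomputable def LamD (γ : Finset α → ℝ) (SS : Finset (Finset α)) (s N : ℝ)
    (W : Finset α) (D : ℝ) (O : Finset α) : ℝ :=
  ∑ S ∈ SS, γ S * eD γ SS s N W D O S

/-- unnormalised transition weight. -/
noncomputable def TD (γ : Finset α → ℝ) (SS : Finset (Finset α)) (s N : ℝ)
    (W : Finset α) (D : ℝ) (O Y : Finset α) : ℝ :=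
  ∑ S ∈ SS with Y ⊆ Flag γ SS s N W O S, γ S * eD γ SS s N W D (O ∪ Y) S

variable {γ : Finset α → ℝ} {SS : Finset (Finset α)} {s N D : ℝ} {W O O₂ V S Y Z : Finset α}

theorem Flag_subset : Flag γ SS s N W O S ⊆ S \ O := Finset.filter_subset _ _

theorem Flag_card_le : (Flag γ SS s N W O S).card ≤ (S \ O).card :=
  Finset.card_le_card Flag_subset

theorem mem_Flag {x : α} : x ∈ Flag γ SS s N W O S ↔ x ∈ S \ O ∧
    ∃ O' Z : Finset α, W ⊆ O' ∧ O' ⊆ O ∧ Z ⊆ S \ O' ∧ x ∈ Z ∧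
      (1 / N) ^ Z.card ≤ Inf γ SS s Z O' := by
  classical
  unfold Flag
  rw [Finset.mem_filter]

theorem Flag_hered (hO : O ⊆ O₂) : Flag γ SS s N W O S \ O₂ ⊆ Flag γ SS s N W O₂ S := by
  intro x hx
  rw [Finset.mem_sdiff, mem_Flag] at hx
  obtain ⟨⟨hx1, O', Z, h1, h2, h3, h4, h5⟩, hx2⟩ := hx
  rw [mem_Flag]
  refine ⟨Finset.mem_sdiff.mpr ⟨(Finset.mem_sdiff.mp hx1).1, hx2⟩, O', Z, h1, h2.trans hO,
    h3, h4, h5⟩

theorem unflagged (hWO : W ⊆ O) (hY : Y ⊆ S \ O) (hn : ¬ Y ⊆ Flag γ SS s N W O S) :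
    Inf γ SS s Y O < (1 / N) ^ Y.card := by
  by_contra h
  rw [not_lt] at h
  apply hn
  intro x hx
  rw [mem_Flag]
  exact ⟨hY hx, O, Y, hWO, Finset.Subset.refl _, hY, hx, h⟩

theorem e_mono {m f f' : ℕ} (h : f ≤ f') (hf : f' ≤ m) (hD : 0 ≤ D) (hDs : D ≤ s) :
    s ^ (m - f') * D ^ f' ≤ s ^ (m - f) * D ^ f := by
  obtain ⟨k, rfl⟩ := Nat.exists_eq_add_of_le h
  have h1 : m - f = (m - (f + k)) + k := by omega
  have hs : 0 ≤ s := hD.trans hDs
  rw [h1, pow_add, pow_add]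
  have h2 : D ^ k ≤ s ^ k := pow_le_pow_left₀ hD hDs k
  have h3 : 0 ≤ s ^ (m - (f + k)) * D ^ f := mul_nonneg (pow_nonneg hs _) (pow_nonneg hD _)
  calc s ^ (m - (f + k)) * (D ^ f * D ^ k) = s ^ (m - (f + k)) * D ^ f * D ^ k := by ring
    _ ≤ s ^ (m - (f + k)) * D ^ f * s ^ k := mul_le_mul_of_nonneg_left h2 h3
    _ = _ := by ring

theorem eD_nonneg (hs : 0 ≤ s) (hD : 0 ≤ D) : 0 ≤ eD γ SS s N W D O S :=
  mul_nonneg (pow_nonneg hs _) (pow_nonneg hD _)

theorem eD_le (hD : 0 ≤ D) (hDs : D ≤ s) : eD γ SS s N W D O S ≤ s ^ (S \ O).card := by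
  have := e_mono (s := s) (D := D) (Nat.zero_le (Flag γ SS s N W O S).card) Flag_card_le hD hDs
  simpa [eD] using this

theorem eD_self : eD γ SS s N W s O S = s ^ (S \ O).card := by
  unfold eD
  rw [← pow_add, Nat.sub_add_cancel Flag_card_le]

theorem eD_mono {D' : ℝ} (hs : 0 ≤ s) (hD : 0 ≤ D) (h : D ≤ D') :
    eD γ SS s N W D O S ≤ eD γ SS s N W D' O S :=
  mul_le_mul_of_nonneg_left (pow_le_pow_left₀ hD h _) (pow_nonneg hs _)

/-- same residual set, bigger context: smaller weight. -/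
theorem eD_anti (hO : O ⊆ O₂) (hS : S \ O = S \ O₂) (hD : 0 ≤ D) (hDs : D ≤ s) :
    eD γ SS s N W D O₂ S ≤ eD γ SS s N W D O S := by
  have h1 : Flag γ SS s N W O S ⊆ Flag γ SS s N W O₂ S := by
    intro x hx
    apply Flag_hered hO
    rw [Finset.mem_sdiff]
    refine ⟨hx, ?_⟩
    have h2 := Flag_subset hx
    rw [hS] at h2
    exact (Finset.mem_sdiff.mp h2).2
  unfold eD
  rw [← hS]
  exact e_mono (Finset.card_le_card h1) (by rw [hS]; exact Flag_card_le) hD hDs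

theorem eD_step (hY : Y ⊆ Flag γ SS s N W O S) (hD : 0 ≤ D) (hDs : D ≤ s) :
    eD γ SS s N W D (O ∪ Y) S ≤ s ^ ((S \ O).card - (Flag γ SS s N W O S).card)
      * D ^ ((Flag γ SS s N W O S).card - Y.card) := by
  have hYS : Y ⊆ S \ O := hY.trans Flag_subset
  have h1 : S \ (O ∪ Y) = (S \ O) \ Y := by
    ext x; simp only [Finset.mem_sdiff, Finset.mem_union]; tauto
  have h2 : (S \ (O ∪ Y)).card = (S \ O).card - Y.card := by
    rw [h1, Finset.card_sdiff_of_subset hYS]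
  have h3 : (Flag γ SS s N W O S).card - Y.card ≤ (Flag γ SS s N W (O ∪ Y) S).card := by
    rw [← Finset.card_sdiff_of_subset hY]
    apply Finset.card_le_card
    intro x hx
    rw [Finset.mem_sdiff] at hx
    apply Flag_hered (Finset.subset_union_left)
    rw [Finset.mem_sdiff]
    refine ⟨hx.1, ?_⟩
    rw [Finset.mem_union]
    rintro (h | h)
    · exact (Finset.mem_sdiff.mp (Flag_subset hx.1)).2 h
    · exact hx.2 h
  have h4 : (Flag γ SS s N W (O ∪ Y) S).card ≤ (S \ (O ∪ Y)).card := Flag_card_le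
  have h5 : Y.card ≤ (Flag γ SS s N W O S).card := Finset.card_le_card hY
  have h6 : (Flag γ SS s N W O S).card ≤ (S \ O).card := Flag_card_le
  have h7 := e_mono (s := s) (D := D) h3 h4 hD hDs
  unfold eD
  refine h7.trans (le_of_eq ?_)
  congr 2
  omega

theorem TD_nonneg (hγ : ∀ S, 0 ≤ γ S) (hs : 0 ≤ s) (hD : 0 ≤ D) : 0 ≤ TD γ SS s N W D O Y :=
  Finset.sum_nonneg (fun S _ => mul_nonneg (hγ S) (eD_nonneg hs hD))

theorem LamD_nonneg (hγ : ∀ S, 0 ≤ γ S) (hs : 0 ≤ s) (hD : 0 ≤ D) :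
    0 ≤ LamD γ SS s N W D O :=
  Finset.sum_nonneg (fun S _ => mul_nonneg (hγ S) (eD_nonneg hs hD))

theorem LamD_mono {D' : ℝ} (hγ : ∀ S, 0 ≤ γ S) (hs : 0 ≤ s) (hD : 0 ≤ D) (h : D ≤ D') :
    LamD γ SS s N W D O ≤ LamD γ SS s N W D' O :=
  Finset.sum_le_sum (fun S _ => mul_le_mul_of_nonneg_left (eD_mono hs hD h) (hγ S))

theorem LamD_self : LamD γ SS s N W s O = Lam γ SS s O :=
  Finset.sum_congr rfl (fun S _ => by rw [eD_self])

theorem LamD_le_Lam (hγ : ∀ S, 0 ≤ γ S) (hD : 0 ≤ D) (hDs : D ≤ s) :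
    LamD γ SS s N W D O ≤ Lam γ SS s O :=
  Finset.sum_le_sum (fun S _ => mul_le_mul_of_nonneg_left (eD_le hD hDs) (hγ S))

/-- (b) -/
theorem flag_b {d : ℝ} (hγ : ∀ S, 0 ≤ γ S) (hD : 0 ≤ D) (hDs : D ≤ s) (hd : 0 ≤ d) :
    ∑ Y : Finset α with Y.Nonempty ∧ Disjoint Y O, TD γ SS s N W D O Y * d ^ Y.card
      ≤ LamD γ SS s N W (D + d) O - LamD γ SS s N W D O := by
  classical
  have hs : 0 ≤ s := hD.trans hDs
  have h1 : ∑ Y : Finset α with Y.Nonempty ∧ Disjoint Y O, TD γ SS s N W D O Y * d ^ Y.card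
      = ∑ S ∈ SS, γ S * ∑ Y : Finset α with (Y.Nonempty ∧ Disjoint Y O),
        (if Y ⊆ Flag γ SS s N W O S then eD γ SS s N W D (O ∪ Y) S * d ^ Y.card else 0) := by
    simp_rw [Finset.mul_sum]
    rw [Finset.sum_comm]
    refine Finset.sum_congr rfl (fun Y _ => ?_)
    unfold TD
    rw [Finset.sum_mul, Finset.sum_filter]
    refine Finset.sum_congr rfl (fun S _ => ?_)
    split_ifs <;> ring
  rw [h1]
  unfold LamD
  rw [← Finset.sum_sub_distrib]
  refine Finset.sum_le_sum (fun S _ => ?_)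
  rw [← mul_sub]
  refine mul_le_mul_of_nonneg_left ?_ (hγ S)
  set F := Flag γ SS s N W O S with hF
  have h2 : ∑ Y : Finset α with (Y.Nonempty ∧ Disjoint Y O),
        (if Y ⊆ F then eD γ SS s N W D (O ∪ Y) S * d ^ Y.card else 0)
      ≤ ∑ Y ∈ F.powerset.erase ∅,
        s ^ ((S \ O).card - F.card) * (d ^ Y.card * D ^ (F.card - Y.card)) := by
    rw [← Finset.sum_filter]
    refine (Finset.sum_le_sum_of_subset_of_nonneg (t := F.powerset.erase ∅) ?_ ?_).trans ?_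
    · intro Y hY
      simp only [Finset.mem_filter, Finset.mem_univ, true_and] at hY
      rw [Finset.mem_erase, Finset.mem_powerset]
      exact ⟨Finset.nonempty_iff_ne_empty.mp hY.1.1, hY.2⟩
    · intro Y _ _
      exact mul_nonneg (eD_nonneg hs hD) (pow_nonneg hd _)
    · refine Finset.sum_le_sum (fun Y hY => ?_)
      rw [Finset.mem_erase, Finset.mem_powerset] at hY
      have := eD_step (D := D) hY.2 hD hDs
      calc eD γ SS s N W D (O ∪ Y) S * d ^ Y.card
          ≤ (s ^ ((S \ O).card - F.card) * D ^ (F.card - Y.card)) * d ^ Y.card :=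
            mul_le_mul_of_nonneg_right this (pow_nonneg hd _)
        _ = _ := by ring
  refine h2.trans (le_of_eq ?_)
  rw [← Finset.mul_sum]
  have h3 := Finset.sum_pow_mul_eq_add_pow d D F
  rw [← Finset.add_sum_erase _ _ (Finset.empty_mem_powerset F)] at h3
  simp only [Finset.card_empty, pow_zero, one_mul, Nat.sub_zero] at h3
  have h4 : ∑ Y ∈ F.powerset.erase ∅, d ^ Y.card * D ^ (F.card - Y.card)
      = (D + d) ^ F.card - D ^ F.card := by
    rw [add_comm D d, ← h3]; ring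
  rw [h4]
  unfold eD
  rw [← hF]; ring

omit [Fintype α] in
theorem sum_inv_pow (V : Finset α) (x : ℝ) :
    ∑ Y ∈ V.powerset.erase ∅, x ^ Y.card = (1 + x) ^ V.card - 1 := by
  have h3 := Finset.sum_pow_mul_eq_add_pow x 1 V
  rw [← Finset.add_sum_erase _ _ (Finset.empty_mem_powerset V)] at h3
  simp only [Finset.card_empty, pow_zero, one_pow, mul_one] at h3
  rw [add_comm 1 x, ← h3]; ring

theorem pow_bound {ν : ℕ} {ε : ℝ} (hN : 0 < N) (hν : ν / N ≤ ε) (hε : ε ≤ 1) {m : ℕ}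
    (hm : m ≤ ν) : (1 + 1 / N) ^ m - 1 ≤ 2 * ε := by
  have h0 : (0 : ℝ) ≤ 1 / N := by positivity
  have h1 : (1 + 1 / N) ^ m ≤ Real.exp (m * (1 / N)) := by
    rw [Real.exp_nat_mul]
    refine pow_le_pow_left₀ (by linarith) ?_ _
    have := Real.add_one_le_exp (1 / N)
    linarith
  have h2 : (m : ℝ) * (1 / N) ≤ ε := by
    refine le_trans ?_ hν
    rw [mul_one_div]
    have : (m : ℝ) ≤ ν := by exact_mod_cast hm
    exact div_le_div_of_nonneg_right this hN.le
  have hε0 : 0 ≤ ε := le_trans (by positivity) h2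
  have h3 : Real.exp (m * (1 / N)) ≤ Real.exp ε := Real.exp_le_exp.mpr h2
  have h4 := Real.abs_exp_sub_one_sub_id_le (x := ε) (by rw [abs_of_nonneg hε0]; exact hε)
  have h5 := (abs_le.mp h4).2
  nlinarith

/-- (a) -/
theorem flag_a {ν : ℕ} {ε : ℝ} (hγ : ∀ S, 0 ≤ γ S) (hD : 0 ≤ D) (hDs : D ≤ s)
    (hN : 0 < N) (hν : ν / N ≤ ε) (hε : ε ≤ 1) (hWO : W ⊆ O) (hOV : O ⊆ V)
    (hV : (V \ W).card ≤ ν) :
    LamD γ SS s N W D V - LamD γ SS s N W D O - 2 * ε
      ≤ ∑ Y ∈ V.powerset with Y.Nonempty ∧ Disjoint Y O, TD γ SS s N W D O Y := by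
  classical
  have hs : 0 ≤ s := hD.trans hDs
  -- the unflagged part
  have hun : ∑ S ∈ SS, γ S * (if ((S ∩ V) \ O).Nonempty ∧ ¬ ((S ∩ V) \ O) ⊆ Flag γ SS s N W O S
      then s ^ ((S \ O) \ ((S ∩ V) \ O)).card else 0) ≤ 2 * ε := by
    have h1 : ∑ S ∈ SS, γ S * (if ((S ∩ V) \ O).Nonempty ∧
        ¬ ((S ∩ V) \ O) ⊆ Flag γ SS s N W O S
        then s ^ ((S \ O) \ ((S ∩ V) \ O)).card else 0)
        ≤ ∑ Y ∈ (V \ O).powerset.erase ∅, ∑ S ∈ SS with ((S ∩ V) \ O = Y ∧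
          ¬ Y ⊆ Flag γ SS s N W O S), γ S * s ^ ((S \ O) \ Y).card := by
      have h2 : ∑ Y ∈ (V \ O).powerset.erase ∅, ∑ S ∈ SS with ((S ∩ V) \ O = Y ∧
          ¬ Y ⊆ Flag γ SS s N W O S), γ S * s ^ ((S \ O) \ Y).card
          = ∑ S ∈ SS, ∑ Y ∈ (V \ O).powerset.erase ∅, (if ((S ∩ V) \ O = Y ∧
          ¬ Y ⊆ Flag γ SS s N W O S) then γ S * s ^ ((S \ O) \ Y).card else 0) := by
        rw [Finset.sum_comm]
        refine Finset.sum_congr rfl (fun Y _ => ?_)
        rw [Finset.sum_filter]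
      rw [h2]
      refine Finset.sum_le_sum (fun S _ => ?_)
      have hnn : ∀ Y ∈ (V \ O).powerset.erase ∅, 0 ≤ (if ((S ∩ V) \ O = Y ∧
          ¬ Y ⊆ Flag γ SS s N W O S) then γ S * s ^ ((S \ O) \ Y).card else 0) := by
        intro Y _
        split_ifs
        · exact mul_nonneg (hγ S) (pow_nonneg hs _)
        · exact le_refl _
      by_cases hc : ((S ∩ V) \ O).Nonempty ∧ ¬ ((S ∩ V) \ O) ⊆ Flag γ SS s N W O S
      · rw [if_pos hc]
        have h3 : (S ∩ V) \ O ∈ (V \ O).powerset.erase ∅ := by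
          rw [Finset.mem_erase, Finset.mem_powerset]
          exact ⟨Finset.nonempty_iff_ne_empty.mp hc.1,
            Finset.sdiff_subset_sdiff Finset.inter_subset_right (Finset.Subset.refl _)⟩
        have h4 := Finset.single_le_sum hnn h3
        rw [if_pos ⟨rfl, hc.2⟩] at h4
        exact h4
      · rw [if_neg hc, mul_zero]
        exact Finset.sum_nonneg hnn
    have h5 : ∑ Y ∈ (V \ O).powerset.erase ∅, ∑ S ∈ SS with ((S ∩ V) \ O = Y ∧
          ¬ Y ⊆ Flag γ SS s N W O S), γ S * s ^ ((S \ O) \ Y).card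
        ≤ ∑ Y ∈ (V \ O).powerset.erase ∅, (1 / N) ^ Y.card := by
      refine Finset.sum_le_sum (fun Y hY => ?_)
      rw [Finset.mem_erase, Finset.mem_powerset] at hY
      by_cases hex : ∃ S ∈ SS, ((S ∩ V) \ O = Y ∧ ¬ Y ⊆ Flag γ SS s N W O S)
      · obtain ⟨S₀, hS₀, hS₁, hS₂⟩ := hex
        have h6 : Y ⊆ S₀ \ O := by
          rw [← hS₁]
          exact Finset.sdiff_subset_sdiff Finset.inter_subset_left (Finset.Subset.refl _)
        refine le_trans ?_ (unflagged hWO h6 hS₂).le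
        unfold Inf
        refine Finset.sum_le_sum_of_subset_of_nonneg ?_
          (fun S _ _ => mul_nonneg (hγ S) (pow_nonneg hs _))
        intro S hS
        rw [Finset.mem_filter] at hS ⊢
        refine ⟨hS.1, ?_⟩
        rw [← hS.2.1]
        exact Finset.sdiff_subset_sdiff Finset.inter_subset_left (Finset.Subset.refl _)
      · rw [Finset.filter_eq_empty_iff.mpr (fun S hS h => hex ⟨S, hS, h⟩), Finset.sum_empty]
        positivity
    refine h1.trans (h5.trans ?_)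
    rw [sum_inv_pow]
    refine pow_bound hN hν hε (le_trans (Finset.card_le_card ?_) hV)
    exact Finset.sdiff_subset_sdiff (Finset.Subset.refl _) hWO
  -- flagged part
  have hT : ∑ Y ∈ V.powerset with Y.Nonempty ∧ Disjoint Y O, TD γ SS s N W D O Y
      = ∑ S ∈ SS, γ S * ∑ Y ∈ V.powerset with Y.Nonempty ∧ Disjoint Y O,
        (if Y ⊆ Flag γ SS s N W O S then eD γ SS s N W D (O ∪ Y) S else 0) := by
    simp_rw [Finset.mul_sum]
    rw [Finset.sum_comm]
    refine Finset.sum_congr rfl (fun Y _ => ?_)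
    unfold TD
    rw [Finset.sum_filter]
    refine Finset.sum_congr rfl (fun S _ => ?_)
    split_ifs <;> ring
  have hmain : LamD γ SS s N W D V ≤ LamD γ SS s N W D O
      + ∑ S ∈ SS, γ S * (if ((S ∩ V) \ O).Nonempty ∧ ¬ ((S ∩ V) \ O) ⊆ Flag γ SS s N W O S
        then s ^ ((S \ O) \ ((S ∩ V) \ O)).card else 0)
      + ∑ Y ∈ V.powerset with Y.Nonempty ∧ Disjoint Y O, TD γ SS s N W D O Y := by
    rw [hT]
    unfold LamD
    rw [← Finset.sum_add_distrib, ← Finset.sum_add_distrib]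
    refine Finset.sum_le_sum (fun S _ => ?_)
    rw [← mul_add, ← mul_add]
    refine mul_le_mul_of_nonneg_left ?_ (hγ S)
    have hnn : ∀ Y ∈ V.powerset.filter (fun Y => Y.Nonempty ∧ Disjoint Y O),
        0 ≤ (if Y ⊆ Flag γ SS s N W O S then eD γ SS s N W D (O ∪ Y) S else 0) := by
      intro Y _
      split_ifs
      · exact eD_nonneg hs hD
      · exact le_refl _
    have hsumnn := Finset.sum_nonneg hnn
    have hSV : (S \ O) \ ((S ∩ V) \ O) = S \ V := by
      ext x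
      simp only [Finset.mem_sdiff, Finset.mem_inter]
      constructor
      · rintro ⟨⟨h1, h2⟩, h3⟩
        exact ⟨h1, fun h => h3 ⟨⟨h1, h⟩, h2⟩⟩
      · rintro ⟨h1, h2⟩
        exact ⟨⟨h1, fun h => h2 (hOV h)⟩, fun h => h2 h.1.2⟩
    have heO : 0 ≤ eD γ SS s N W D O S := eD_nonneg hs hD
    by_cases hne : ((S ∩ V) \ O).Nonempty
    · by_cases hfl : ((S ∩ V) \ O) ⊆ Flag γ SS s N W O S
      · rw [if_neg (fun h => h.2 hfl)]
        have h1 : (S ∩ V) \ O ∈ V.powerset.filter (fun Y => Y.Nonempty ∧ Disjoint Y O) := by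
          rw [Finset.mem_filter, Finset.mem_powerset]
          exact ⟨Finset.sdiff_subset.trans Finset.inter_subset_right, hne,
            Finset.sdiff_disjoint⟩
        have h2 := Finset.single_le_sum hnn h1
        rw [if_pos hfl] at h2
        have h3 : eD γ SS s N W D V S ≤ eD γ SS s N W D (O ∪ ((S ∩ V) \ O)) S := by
          apply eD_anti _ _ hD hDs
          · exact Finset.union_subset hOV (Finset.sdiff_subset.trans Finset.inter_subset_right)
          · rw [← hSV]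
            ext x; simp only [Finset.mem_sdiff, Finset.mem_union]; tauto
        linarith
      · rw [if_pos ⟨hne, hfl⟩, hSV]
        have h3 : eD γ SS s N W D V S ≤ s ^ (S \ V).card := eD_le hD hDs
        linarith
    · rw [if_neg (fun h => hne h.1)]
      have h3 : eD γ SS s N W D V S ≤ eD γ SS s N W D O S := by
        apply eD_anti hOV _ hD hDs
        rw [← hSV]
        rw [Finset.not_nonempty_iff_eq_empty] at hne
        rw [hne, Finset.sdiff_empty]
      linarith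
  linarith

end Vale.Agent.H4.P034
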